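-- Statement S0166 (row 125). The statement below is byte-identical to the frozen statement
-- Crest.AnalysisR.CrestFrozen.S0166 (Crest/Statements/S0166.lean).
import Crest.Statements.S0166
import Crest.Agent.Helper7.S0166Glue
import Crest.Agent.Helper7.S0166Sum
import Crest.Agent.Helper28.SumMod
import Crest.Agent.Helper27.SumReflFinal
import Crest.Agent.Helper6.Diamond
import Crest.Agent.Helper8.TreeBasic
import Crest.Agent.Helper19.TreeAmuc

set_option autoImplicit false
open Crest Crest.AnalysisR

namespace Crest.Agent.S0166

/-- There is a real Banach space (RealBanach record) that is separable, infinite-dimensional and reflexive, whose given norm has at every t > 0 averaged midpoint asymptotic modulus at least √(1 + t²/12) - 1 and at least (√(1 + t²/4) - 1)/2 and maximum-based midpoint modulus at least √(1 + t²/4) - 1, on which no equivalent norm is asymptotically uniformly convex, and in which for every k every map of the depth-k countably branching diamond graph of distortion at most D has 1 + k/4 ≤ D². -/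
theorem result :
    ∃ E : Crest.AnalysisR.RealBanach, E.IsSeparableInfiniteDim ∧ E.IsReflexive ∧
      (∀ t : ℝ, 0 < t → E.MidpointModulusGE E.norm t (Real.sqrt (1 + t ^ 2 / 12) - 1) ∧
        E.MidpointModulusGE E.norm t ((Real.sqrt (1 + t ^ 2 / 4) - 1) / 2) ∧
        E.MaxMidpointModulusGE E.norm t (Real.sqrt (1 + t ^ 2 / 4) - 1)) ∧
      (∀ N : E.X → ℝ, E.IsEquivNorm N → ¬ E.IsAUC N) ∧
      ∀ (k : ℕ) (f : Crest.AnalysisR.DiamondVertex k → E.X) (D : ℝ),
        E.HasDistortionLE k f D → 1 + (k : ℝ) / 4 ≤ D ^ 2 :=
  Crest.Agent.Helper7.S0166Glue.s0166_of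
    (fun _ ht x hx _ hη =>
      Crest.Agent.Helper28.sum_midpoint_of
        (fun n T0 hT0 c y hy =>
          Crest.Agent.Helper19.TA.block_ineq (Crest.Agent.Helper8.potClass_extraH n) T0 hT0 c y hy)
        (fun _ x _ heps => Crest.Agent.Helper19.TA.dense x heps)
        ht x hx hη)
    Crest.Agent.Helper27.sumSpace_reflexive
    Crest.Agent.Helper7.S0166Sum.sum_separable
    Crest.Agent.Helper7.S0166Sum.sum_infinite_dim
    Crest.Agent.Helper7.S0166Sum.sum_not_auc
    (fun E hE => Crest.Agent.Helper6.diamond_distortion E hE)

end Crest.Agent.S0166
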