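import Crest.Statements.S0169
import Crest.Agent.Helper2.TreeProd
import Crest.Agent.Helper2.TreeLemma
import Crest.Agent.Helper15.TreeProdLp

set_option autoImplicit false
open MeasureTheory ProbabilityTheory
open Crest Crest.AnalysisR

namespace Crest.Agent.S0169

/-- Let ν be a Borel probability law on ℝ carried by (0,∞), not a point mass, with mean 1 and finite second moment, and W an independent family of real random variables on a probability space indexed by the vertices of the countably branching tree (finite lists of naturals; root [], parent of a :: v is v), each non-root one with law ν. Then the closed linear span in L¹ of the path products ∏_{root ≺ u ≼ v} W_u is infinite-dimensional and has no equivalent asymptotically uniformly convex norm. -/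
theorem result (ν : Measure ℝ) [IsProbabilityMeasure ν] (hpos : ν (Set.Ioi 0) = 1)
    (hnc : ∀ c : ℝ, ν ≠ Measure.dirac c) (hmean : ∫ x, x ∂ν = 1)
    (hm2 : Integrable (fun x : ℝ => x ^ 2) ν)
    (Ω : Type) [MeasurableSpace Ω] (μ : Measure Ω) [IsProbabilityMeasure μ]
    (W : List ℕ → Ω → ℝ) (hW : Crest.AnalysisR.TreeProduct.IsRealization ν μ W) :
    ¬ FiniteDimensional ℝ (Crest.AnalysisR.TreeProduct.productSpan μ W) ∧
      ∀ N : (Crest.AnalysisR.TreeProduct.spanBanach μ W).X → ℝ,
        (Crest.AnalysisR.TreeProduct.spanBanach μ W).IsEquivNorm N →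
          ¬ (Crest.AnalysisR.TreeProduct.spanBanach μ W).IsAUC N := by
  exact Crest.Agent.Helper2.Tree.tree_not_auc (Crest.AnalysisR.TreeProduct.spanBanach μ W)
    (Crest.Agent.Helper15.pp μ W) 1 (Crest.Agent.Helper2.TP.rho ν)
    (Crest.Agent.Helper2.TP.rho_pos hnc hm2)
    (fun v => (Crest.Agent.Helper15.norm_pp hW hpos hmean hm2 v).le)
    (fun v a => (Crest.Agent.Helper15.norm_pp_cons_sub hW hpos hmean hm2 v a).ge)
    (fun v => ⟨Real.sqrt (Crest.Agent.Helper2.TP.s2 ν),
      fun A c => Crest.Agent.Helper15.norm_sum_le hW hpos hmean hm2 v A c⟩)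

end Crest.Agent.S0169
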